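import Vale.Agent.P159.H950.C1
import Vale.Agent.P159.H873.Mono
import Vale.Agent.P159.T1.D.Defs
import Vale.Agent.P159.T1.H568.UBlock

/-!
Tiling of the half-bonds by blocks of side `l`, with an arbitrary character.
-/

set_option linter.all false
set_option autoImplicit false

open MeasureTheory Filter Topology
open scoped BigOperators

namespace Vale.Agent.P159.T1.H130

open Vale.Agent.P159 Vale.Agent.P159.UJ Vale.Agent.P159.H950
open Vale.Agent.P159.T1.D (Bnd Z2 bs bt rt lf sh osc)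

/-- character of a bond -/
noncomputable def cb (e : Bnd) : Chr Ginf := grad (bs e) (bt e)

/-- the bond of a half-bond of a cell -/
def hb (c : ℤ × ℤ) (t : HT) : Bnd := (hu c t, t.1)

theorem cb_hb (c : ℤ × ℤ) (t : HT) : cb (hb c t) = grad (hu c t) (hv c t) := by
  have h1 : bs (hb c t) = hu c t := rfl
  have h2 : bt (hb c t) = hv c t := by
    unfold bt hb hv
    rcases t with ⟨_ | _, t2⟩ <;> simp [Prod.ext_iff]
  unfold cb
  rw [h1, h2]

/-- the cell of which `e` is the half-bond of type `t` -/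
def cl (t : HT) (e : Bnd) : ℤ × ℤ :=
  (e.1.1 - (if t.1 && t.2 then 1 else 0), e.1.2 - (if (!t.1) && t.2 then 1 else 0))

theorem cl_hb (c : ℤ × ℤ) (t : HT) : cl t (hb c t) = c := by
  unfold cl hb hu
  simp

theorem hb_cl (t : HT) (e : Bnd) (h : e.2 = t.1) : hb (cl t e) t = e := by
  unfold cl hb hu
  rw [← h]
  simp

theorem cl_mem {R : Finset (ℤ × ℤ)} {e : Bnd} (h : rt e ∈ R ∧ lf e ∈ R) (t : HT)
    (ht : e.2 = t.1) : cl t e ∈ R := by
  obtain ⟨h1, h2⟩ := h
  unfold rt at h1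
  unfold lf at h2
  rw [ht] at h1 h2
  rcases t with ⟨_ | _, _ | _⟩ <;> simp [cl] at h1 h2 ⊢ <;> assumption

theorem sum_hb_eq {M : Type*} [AddCommMonoid M] {R : Finset (ℤ × ℤ)} {E : Finset Bnd}
    (hE : ∀ e ∈ E, rt e ∈ R ∧ lf e ∈ R) (t : HT) (F : Bnd → M) :
    ∑ c ∈ R, (if hb c t ∈ E then F (hb c t) else 0) =
      ∑ e ∈ E.filter (fun e => e.2 = t.1), F e := by
  rw [← Finset.sum_filter]
  refine Finset.sum_nbij' (fun c => hb c t) (fun e => cl t e) ?_ ?_ ?_ ?_ ?_
  · intro c hc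
    rw [Finset.mem_filter] at hc ⊢
    exact ⟨hc.2, rfl⟩
  · intro e he
    rw [Finset.mem_filter] at he ⊢
    refine ⟨cl_mem (hE e he.1) t he.2, ?_⟩
    rw [hb_cl t e he.2]
    exact he.1
  · intro c _
    exact cl_hb c t
  · intro e he
    rw [Finset.mem_filter] at he
    exact hb_cl t e he.2
  · intro c _
    rfl

theorem sum_hb {M : Type*} [AddCommMonoid M] {R : Finset (ℤ × ℤ)} {E : Finset Bnd}
    (hE : ∀ e ∈ E, rt e ∈ R ∧ lf e ∈ R) (F : Bnd → M) :
    ∑ c ∈ R, ∑ t : HT, (if hb c t ∈ E then F (hb c t) else 0) = 2 • ∑ e ∈ E, F e := by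
  rw [Finset.sum_comm]
  simp_rw [sum_hb_eq hE]
  rw [Fintype.sum_prod_type]
  simp only [Fintype.sum_bool]
  have h : ∑ e ∈ E.filter (fun e => e.2 = true), F e + ∑ e ∈ E.filter (fun e => e.2 = false), F e =
      ∑ e ∈ E, F e := by
    rw [← Finset.sum_filter_add_sum_filter_not E (fun e => e.2 = true)]
    simp only [Bool.not_eq_true]
  rw [two_nsmul, ← h]
  abel

theorem sum_hb_le (R : Finset (ℤ × ℤ)) (S : Finset Bnd) (F : Bnd → ℝ) (hF : ∀ e, 0 ≤ F e) :
    ∑ c ∈ R, ∑ t : HT, (if hb c t ∈ S then F (hb c t) else 0) ≤ 2 * ∑ e ∈ S, F e := by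
  classical
  have h := sum_hb (R := R ∪ (S.image rt ∪ S.image lf)) (E := S) (by
    intro e he
    constructor
    · exact Finset.mem_union_right _ (Finset.mem_union_left _ (Finset.mem_image_of_mem _ he))
    · exact Finset.mem_union_right _ (Finset.mem_union_right _ (Finset.mem_image_of_mem _ he))) F
  rw [two_nsmul, ← two_mul] at h
  rw [← h]
  refine Finset.sum_le_sum_of_subset_of_nonneg Finset.subset_union_left fun c _ _ => ?_
  refine Finset.sum_nonneg fun t _ => ?_
  split_ifs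
  · exact hF _
  · exact le_rfl

theorem tile_disj {l : ℕ} (hl : 1 ≤ l) (K : Finset (ℤ × ℤ)) :
    (K : Set (ℤ × ℤ)).PairwiseDisjoint fun k => blk (crn l k) l := by
  intro k _ k' _ hne
  rw [Function.onFun, Finset.disjoint_left]
  intro c h1 h2
  rw [mem_tile hl] at h1 h2
  exact hne (h1.symm.trans h2)

theorem sum_blocks {M : Type*} [AddCommMonoid M] {l : ℕ} (hl : 1 ≤ l) (K : Finset (ℤ × ℤ))
    (F : ℤ × ℤ → HT → M) :
    ∑ k ∈ K, ∑ e : KR (blk (crn l k) l), F e.1 e.2 =
      ∑ c ∈ K.biUnion (fun k => blk (crn l k) l), ∑ t, F c t := by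
  rw [Finset.sum_biUnion (tile_disj hl K)]
  refine Finset.sum_congr rfl fun k _ => ?_
  rw [Fintype.sum_prod_type, ← Finset.sum_coe_sort (blk (crn l k) l)]

/-- the oscillation at a bond -/
noncomputable def osb (l : ℕ) (B : Bnd → ℝ) (e : Bnd) : ℝ :=
  ∑ u ∈ Finset.Icc (-(l : ℤ), -(l : ℤ)) ((l : ℤ), (l : ℤ)), (B (sh u e) - B e) ^ 2

theorem osb_nonneg (l : ℕ) (B : Bnd → ℝ) (e : Bnd) : 0 ≤ osb l B e :=
  Finset.sum_nonneg fun _ _ => sq_nonneg _

theorem osc_eq (l : ℕ) (S : Finset Bnd) (B : Bnd → ℝ) : osc l S B = ∑ e ∈ S, osb l B e := rfl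

theorem osb_block {p : ℤ × ℤ} {l : ℕ} (B : Bnd → ℝ) {c : ℤ × ℤ} (hc : c ∈ blk p l) (t : HT) :
    ∑ e : KR (blk p l), (if t.1 = e.2.1 then (B (hb c t) - B (hb e.1 e.2)) ^ 2 else 0) ≤
      2 * osb l B (hb c t) := by
  have h1 : ∀ t' : HT, t.1 = t'.1 →
      ∑ c' ∈ blk p l, (B (hb c t) - B (hb c' t')) ^ 2 ≤ osb l B (hb c t) := by
    intro t' ht
    have hinj : Set.InjOn (fun c' : ℤ × ℤ => hu c' t' - hu c t) (blk p l : Set (ℤ × ℤ)) := by
      intro a _ a' _ h
      simp only [sub_left_inj] at h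
      have h3 := congrArg Prod.fst h
      have h4 := congrArg Prod.snd h
      simp only [hu, add_left_inj] at h3 h4
      exact Prod.ext h3 h4
    have h2 : ∑ c' ∈ blk p l, (B (hb c t) - B (hb c' t')) ^ 2 =
        ∑ u ∈ (blk p l).image (fun c' : ℤ × ℤ => hu c' t' - hu c t),
          (B (sh u (hb c t)) - B (hb c t)) ^ 2 := by
      rw [Finset.sum_image hinj]
      refine Finset.sum_congr rfl fun c' _ => ?_
      have h3 : sh (hu c' t' - hu c t) (hb c t) = hb c' t' := by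
        unfold sh hb
        rw [add_sub_cancel, ht]
      rw [h3]
      ring
    rw [h2]
    refine Finset.sum_le_sum_of_subset_of_nonneg ?_ fun _ _ _ => sq_nonneg _
    intro u hu'
    rw [Finset.mem_image] at hu'
    obtain ⟨c', hc', rfl⟩ := hu'
    rw [mem_blk] at hc hc'
    rw [Finset.mem_Icc, Prod.le_def, Prod.le_def]
    have hb1 : ∀ s : Bool, (0 : ℤ) ≤ (if s = true then 1 else 0) ∧
        (if s = true then (1 : ℤ) else 0) ≤ 1 := by
      intro s; cases s <;> simp
    have a1 := hb1 (t.1 && t.2)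
    have a2 := hb1 ((!t.1) && t.2)
    have a3 := hb1 (t'.1 && t'.2)
    have a4 := hb1 ((!t'.1) && t'.2)
    simp only [hu, Prod.fst_sub, Prod.snd_sub]
    generalize (if (t.1 && t.2) = true then (1 : ℤ) else 0) = z1 at *
    generalize (if ((!t.1) && t.2) = true then (1 : ℤ) else 0) = z2 at *
    generalize (if (t'.1 && t'.2) = true then (1 : ℤ) else 0) = z3 at *
    generalize (if ((!t'.1) && t'.2) = true then (1 : ℤ) else 0) = z4 at *
    omega
  have h2 : ∑ e : KR (blk p l), (if t.1 = e.2.1 then (B (hb c t) - B (hb e.1 e.2)) ^ 2 else 0) =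
      ∑ t' : HT, ∑ c' ∈ blk p l, (if t.1 = t'.1 then (B (hb c t) - B (hb c' t')) ^ 2 else 0) := by
    rw [Fintype.sum_prod_type, Finset.sum_comm]
    refine Finset.sum_congr rfl fun t' _ => ?_
    rw [← Finset.sum_coe_sort (blk p l)]
  rw [h2]
  have h3 : ∀ t' : HT,
      ∑ c' ∈ blk p l, (if t.1 = t'.1 then (B (hb c t) - B (hb c' t')) ^ 2 else 0) ≤
      if t.1 = t'.1 then osb l B (hb c t) else 0 := by
    intro t'
    by_cases h : t.1 = t'.1
    · simp only [h, if_true]
      have := h1 t' h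
      simpa only [h] using this
    · simp only [h, if_false, Finset.sum_const_zero]
      exact le_rfl
  refine (Finset.sum_le_sum fun t' _ => h3 t').trans ?_
  rw [Fintype.sum_prod_type]
  simp only [Fintype.sum_bool]
  rcases t.1 with _ | _ <;> simp <;> linarith

theorem osc_blocks {l : ℕ} (hl : 1 ≤ l) (K : Finset (ℤ × ℤ)) (S : Finset Bnd) (B : Bnd → ℝ)
    (hB : ∀ e, e ∉ S → B e = 0) :
    ∑ k ∈ K, ∑ e : KR (blk (crn l k) l), ∑ e' : KR (blk (crn l k) l),
      (if e.2.1 = e'.2.1 then (B (hb e.1 e.2) - B (hb e'.1 e'.2)) ^ 2 else 0) ≤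
      8 * osc l S B := by
  -- each pair is seen from a bond of S
  have h1 : ∀ k, ∑ e : KR (blk (crn l k) l), ∑ e' : KR (blk (crn l k) l),
      (if e.2.1 = e'.2.1 then (B (hb e.1 e.2) - B (hb e'.1 e'.2)) ^ 2 else 0) ≤
      2 * ∑ e : KR (blk (crn l k) l), (if hb e.1 e.2 ∈ S then 2 * osb l B (hb e.1 e.2) else 0) := by
    intro k
    set q : KR (blk (crn l k) l) → KR (blk (crn l k) l) → ℝ := fun e e' =>
      (if e.2.1 = e'.2.1 then (B (hb e.1 e.2) - B (hb e'.1 e'.2)) ^ 2 else 0) with hq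
    have hq0 : ∀ e e', 0 ≤ q e e' := by
      intro e e'
      simp only [hq]
      split_ifs
      · exact sq_nonneg _
      · exact le_rfl
    have hqs : ∀ e e', q e e' = q e' e := by
      intro e e'
      simp only [hq]
      by_cases h : e.2.1 = e'.2.1
      · rw [if_pos h, if_pos h.symm]; ring
      · rw [if_neg h, if_neg fun h' => h h'.symm]
    have h2 : ∀ e e', q e e' ≤ (if hb e.1 e.2 ∈ S then q e e' else 0) +
        (if hb e'.1 e'.2 ∈ S then q e' e else 0) := by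
      intro e e'
      by_cases h3 : hb e.1 e.2 ∈ S
      · rw [if_pos h3]
        have : 0 ≤ (if hb e'.1 e'.2 ∈ S then q e' e else 0) := by
          split_ifs
          · exact hq0 _ _
          · exact le_rfl
        linarith
      · by_cases h4 : hb e'.1 e'.2 ∈ S
        · rw [if_neg h3, if_pos h4, zero_add, hqs]
        · rw [if_neg h3, if_neg h4, zero_add]
          simp only [hq]
          rw [hB _ h3, hB _ h4]
          simp
    have h5 : ∑ e, ∑ e', q e e' ≤ ∑ e, ∑ e', ((if hb e.1 e.2 ∈ S then q e e' else 0) +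
        (if hb e'.1 e'.2 ∈ S then q e' e else 0)) :=
      Finset.sum_le_sum fun e _ => Finset.sum_le_sum fun e' _ => h2 e e'
    have h6 : ∑ e, ∑ e', ((if hb e.1 e.2 ∈ S then q e e' else 0) +
        (if hb e'.1 e'.2 ∈ S then q e' e else 0)) =
        2 * ∑ e, (if hb e.1 e.2 ∈ S then ∑ e', q e e' else 0) := by
      simp only [Finset.sum_add_distrib]
      rw [Finset.sum_comm (f := fun e e' : KR (blk (crn l k) l) =>
        (if hb e'.1 e'.2 ∈ S then q e' e else 0))]
      rw [← two_mul]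
      congr 1
      refine Finset.sum_congr rfl fun e _ => ?_
      by_cases h : hb e.1 e.2 ∈ S
      · simp only [h, if_true]
      · simp only [h, if_false, Finset.sum_const_zero]
    refine h5.trans (h6.le.trans ?_)
    refine mul_le_mul_of_nonneg_left ?_ (by norm_num)
    refine Finset.sum_le_sum fun e _ => ?_
    by_cases h : hb e.1 e.2 ∈ S
    · rw [if_pos h, if_pos h]
      exact osb_block B e.1.2 e.2
    · rw [if_neg h, if_neg h]
  refine (Finset.sum_le_sum fun k _ => h1 k).trans ?_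
  rw [← Finset.mul_sum]
  rw [sum_blocks hl K (fun c t => if hb c t ∈ S then 2 * osb l B (hb c t) else 0)]
  have h7 := sum_hb_le (K.biUnion (fun k => blk (crn l k) l)) S (fun e => 2 * osb l B e)
    (fun e => mul_nonneg (by norm_num) (osb_nonneg l B e))
  rw [← Finset.mul_sum, ← osc_eq] at h7
  linarith

theorem sq_blocks {l : ℕ} (hl : 1 ≤ l) (K : Finset (ℤ × ℤ)) (S : Finset Bnd) (B : Bnd → ℝ)
    (hB : ∀ e, e ∉ S → B e = 0) :
    ∑ k ∈ K, ∑ e : KR (blk (crn l k) l), B (hb e.1 e.2) ^ 2 ≤ 2 * ∑ e ∈ S, B e ^ 2 := by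
  rw [sum_blocks hl K (fun c t => B (hb c t) ^ 2)]
  refine le_trans (le_of_eq ?_) (sum_hb_le (K.biUnion (fun k => blk (crn l k) l)) S
    (fun e => B e ^ 2) fun e => sq_nonneg _)
  refine Finset.sum_congr rfl fun c _ => Finset.sum_congr rfl fun t _ => ?_
  by_cases h : hb c t ∈ S
  · rw [if_pos h]
  · rw [if_neg h, hB _ h]
    ring

/-! ### characters -/

theorem e_add (A : Chr Ginf) (x y : Ginf) : A.e (x + y) = A.e x * A.e y := by
  unfold Chr.e
  rw [A.c_add, A.s_add]
  push_cast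
  linear_combination (-(A.s x : ℂ) * A.s y) * Complex.I_sq

theorem e_zero (A : Chr Ginf) : A.e 0 = 1 := by
  unfold Chr.e
  rw [A.zero_vals.1, A.zero_vals.2]
  simp

theorem e_sum (A : Chr Ginf) (K : Finset (ℤ × ℤ)) (f : ℤ × ℤ → Ginf) :
    A.e (∑ k ∈ K, f k) = ∏ k ∈ K, A.e (f k) := by
  classical
  induction K using Finset.induction_on with
  | empty => simp [e_zero]
  | insert k K hk ih => rw [Finset.sum_insert hk, Finset.prod_insert hk, e_add, ih]

/-- projection to a block -/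
noncomputable def PK (l : ℕ) (k : ℤ × ℤ) : Ginf →+ Ginf := proj (intR (blk (crn l k) l))

theorem PK_cont (l : ℕ) (k : ℤ × ℤ) : Continuous (PK l k) := proj_cont _

theorem int_tile {l : ℕ} (hl : 1 ≤ l) {k : ℤ × ℤ} {v : ℤ × ℤ}
    (h : v ∈ intR (blk (crn l k) l)) : tl l v = k := by
  obtain ⟨h1, _⟩ := h
  rwa [mem_tile hl] at h1

theorem PK_ne {l : ℕ} (hl : 1 ≤ l) {j k : ℤ × ℤ} (h : j ≠ k) (x : Ginf) :
    PK l k (PK l j x) = 0 := by
  funext v
  unfold PK
  by_cases h1 : v ∈ intR (blk (crn l k) l)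
  · rw [proj_of_mem h1]
    rw [proj_of_notMem]
    · rfl
    · intro h2
      exact h ((int_tile hl h2).symm.trans (int_tile hl h1))
  · rw [proj_of_notMem h1]
    rfl

theorem PK_self {l : ℕ} (k : ℤ × ℤ) (x : Ginf) : PK l k (PK l k x) = PK l k x := by
  funext v
  unfold PK
  by_cases h1 : v ∈ intR (blk (crn l k) l)
  · rw [proj_of_mem h1]
  · rw [proj_of_notMem h1, proj_of_notMem h1]

theorem PK_sum {l : ℕ} (hl : 1 ≤ l) (K : Finset (ℤ × ℤ)) {k : ℤ × ℤ} (hk : k ∈ K) (x : Ginf) :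
    ∑ j ∈ K, PK l j (PK l k x) = PK l k x := by
  rw [Finset.sum_eq_single k]
  · exact PK_self k x
  · intro j _ hj
    exact PK_ne hl hj.symm x
  · intro h
    exact absurd hk h

/-- the characters of the half-bonds of a block are not changed by the spins of another block -/
theorem grad_tile {l : ℕ} (hl : 1 ≤ l) {j k : ℤ × ℤ} (hjk : j ≠ k)
    {c : ℤ × ℤ} (hc : c ∈ blk (crn l k) l) (t : HT) (x y : Ginf) :
    (grad (hu c t) (hv c t)).c (x + PK l j y) = (grad (hu c t) (hv c t)).c x ∧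
      (grad (hu c t) (hv c t)).s (x + PK l j y) = (grad (hu c t) (hv c t)).s x := by
  have hcj : c ∉ blk (crn l j) l := by
    intro h
    rw [mem_tile hl] at h hc
    exact hjk (h.symm.trans hc)
  have h1 : PK l j y (hu c t) = 0 := proj_of_notMem (fun h => hcj (mem_intR_hu h)) y
  have h2 : PK l j y (hv c t) = 0 := proj_of_notMem (fun h => hcj (mem_intR_hv h)) y
  constructor
  · show cosT ((x + PK l j y) (hu c t) - (x + PK l j y) (hv c t)) =
      cosT (x (hu c t) - x (hv c t))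
    rw [Pi.add_apply, Pi.add_apply, h1, h2, add_zero, add_zero]
  · show sinT ((x + PK l j y) (hu c t) - (x + PK l j y) (hv c t)) =
      sinT (x (hu c t) - x (hv c t))
    rw [Pi.add_apply, Pi.add_apply, h1, h2, add_zero, add_zero]

theorem sum_blocks_bonds {M : Type*} [AddCommMonoid M] {l : ℕ} (hl : 1 ≤ l)
    (K : Finset (ℤ × ℤ)) (E : Finset Bnd)
    (hE : ∀ e ∈ E, tl l (rt e) ∈ K ∧ tl l (lf e) ∈ K) (F : Bnd → M) :
    ∑ k ∈ K, ∑ e : KR (blk (crn l k) l), (if hb e.1 e.2 ∈ E then F (hb e.1 e.2) else 0) =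
      2 • ∑ e ∈ E, F e := by
  rw [sum_blocks hl K (fun c t => if hb c t ∈ E then F (hb c t) else 0)]
  refine sum_hb ?_ F
  intro e he
  obtain ⟨h1, h2⟩ := hE e he
  constructor
  · exact Finset.mem_biUnion.2 ⟨_, h1, (mem_tile hl).2 rfl⟩
  · exact Finset.mem_biUnion.2 ⟨_, h2, (mem_tile hl).2 rfl⟩

theorem tile_core {b η C a : ℝ} {l : ℕ} (hb0 : 0 < b) (hl : 1 ≤ l) (hC : 0 ≤ C) (ha : 0 ≤ a)
    (bf : ∀ (p : ℤ × ℤ) (J : KR (blk p l) → ℝ), (∀ e, 0 ≤ J e ∧ J e ≤ b / 2) →
      ∀ (y : KR (blk p l) → ℝ), (∀ e, |y e| ≤ η) → ∀ (A : Chr Ginf) (x : Ginf),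
      ‖avg muInf (proj (intR (blk p l)))
          (fun z => A.e z * WW J (fun e : KR (blk p l) => grad (hu e.1 e.2) (hv e.1 e.2)) y z) x‖ ≤
        Real.exp (a / 4 * ∑ e, y e ^ 2 +
            C * ∑ e, ∑ e', (if e.2.1 = e'.2.1 then (y e - y e') ^ 2 else 0)) *
          ∫ z, Real.exp (∑ e : KR (blk p l), J e *
            (grad (hu e.1 e.2) (hv e.1 e.2)).c (x + proj (intR (blk p l)) z)) ∂muInf)
    (E S : Finset Bnd) (B : Bnd → ℝ) (hB : ∀ e, e ∉ S → B e = 0) (hBη : ∀ e, |B e| ≤ η)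
    (A : Chr Ginf) :
    ‖∫ x, A.e x * Complex.exp (∑ e ∈ E, b * (cb e).C (B e * Complex.I) x) ∂muInf‖ ≤
      Real.exp (a / 2 * ∑ e ∈ S, B e ^ 2 + 8 * C * osc l S B) *
        ∫ x, Real.exp (∑ e ∈ E, b * (cb e).c x) ∂muInf := by
  classical
  set K : Finset (ℤ × ℤ) := (E.image rt ∪ E.image lf).image (tl l) with hK
  have hEK : ∀ e ∈ E, tl l (rt e) ∈ K ∧ tl l (lf e) ∈ K := by
    intro e he
    constructor
    · exact Finset.mem_image_of_mem _
        (Finset.mem_union_left _ (Finset.mem_image_of_mem _ he))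
    · exact Finset.mem_image_of_mem _
        (Finset.mem_union_right _ (Finset.mem_image_of_mem _ he))
  set J : (k : ℤ × ℤ) → KR (blk (crn l k) l) → ℝ := fun k e =>
    if hb e.1 e.2 ∈ E then b / 2 else 0 with hJ
  have hJ1 : ∀ k e, 0 ≤ J k e ∧ J k e ≤ b / 2 := by
    intro k e
    simp only [hJ]
    split_ifs
    · exact ⟨by linarith, le_rfl⟩
    · exact ⟨le_rfl, by linarith⟩
  set χ : (k : ℤ × ℤ) → KR (blk (crn l k) l) → Chr Ginf := fun k e =>
    grad (hu e.1 e.2) (hv e.1 e.2) with hχ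
  set y : (k : ℤ × ℤ) → KR (blk (crn l k) l) → ℝ := fun k e => B (hb e.1 e.2) with hy
  set W : ℤ × ℤ → Ginf → ℂ := fun k x =>
    (A.comp (PK l k) (PK_cont l k)).e x * WW (J k) (χ k) (y k) x with hW
  set w : ℤ × ℤ → Ginf → ℝ := fun k x => Real.exp (∑ e, J k e * (χ k e).c x) with hw
  set ρ : ℤ × ℤ → ℝ := fun k => Real.exp (a / 4 * ∑ e, y k e ^ 2 +
    C * ∑ e, ∑ e', (if e.2.1 = e'.2.1 then (y k e - y k e') ^ 2 else 0)) with hρ
  set F : Ginf → ℂ := fun x => A.e (x - ∑ k ∈ K, PK l k x) with hF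
  have hWWc : ∀ k, Continuous (WW (J k) (χ k) (y k)) := fun k =>
    Complex.continuous_exp.comp (continuous_finsetSum _ fun e _ =>
      continuous_const.mul ((χ k e).cont_C _))
  have hWc : ∀ k, Continuous (W k) := fun k =>
    ((A.comp (PK l k) (PK_cont l k)).cont_e).mul (hWWc k)
  have hwc : ∀ k, Continuous (w k) := fun k =>
    Real.continuous_exp.comp (continuous_finsetSum _ fun e _ =>
      continuous_const.mul (χ k e).cont_c)
  have hFc : Continuous F := by
    refine A.cont_e.comp (continuous_id.sub ?_)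
    exact continuous_finsetSum _ fun k _ => PK_cont l k
  have hit := block_iter muInf (fun k => (PK l k : Ginf → Ginf)) (fun k => PK_cont l k) W w
    hWc hwc (fun k x => (Real.exp_pos _).le) ρ (fun k => (Real.exp_pos _).le)
    (by
      intro j k hjk x z
      have h1 : (A.comp (PK l k) (PK_cont l k)).e (x + PK l j z) =
          (A.comp (PK l k) (PK_cont l k)).e x := by
        show A.e (PK l k (x + PK l j z)) = A.e (PK l k x)
        rw [map_add, PK_ne hl hjk, add_zero]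
      simp only [hW]
      rw [h1]
      congr 1
      unfold WW Chr.C
      congr 1
      refine Finset.sum_congr rfl fun e _ => ?_
      obtain ⟨h3, h4⟩ := grad_tile hl hjk e.1.2 e.2 x z
      simp only [hχ]
      rw [h3, h4])
    (by
      intro j k hjk x z
      simp only [hw]
      congr 1
      refine Finset.sum_congr rfl fun e _ => ?_
      obtain ⟨h3, h4⟩ := grad_tile hl hjk e.1.2 e.2 x z
      simp only [hχ]
      rw [h3])
    (fun j k x y z => by abel)
    (fun k x => bf (crn l k) (J k) (hJ1 k) (y k) (fun e => hBη _)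
      (A.comp (PK l k) (PK_cont l k)) x)
    K F hFc
    (by
      intro k hk x z
      simp only [hF]
      congr 1
      simp only [map_add, Finset.sum_add_distrib]
      rw [PK_sum hl K hk]
      abel)
  -- the integrand
  have e1 : ∀ x, F x * ∏ k ∈ K, W k x =
      A.e x * Complex.exp (∑ e ∈ E, b * (cb e).C (B e * Complex.I) x) := by
    intro x
    simp only [hW]
    rw [Finset.prod_mul_distrib]
    have h1 : F x * ∏ k ∈ K, (A.comp (PK l k) (PK_cont l k)).e x = A.e x := by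
      have h2 : ∏ k ∈ K, (A.comp (PK l k) (PK_cont l k)).e x = A.e (∑ k ∈ K, PK l k x) := by
        rw [e_sum]
        rfl
      rw [h2]
      simp only [hF]
      rw [← e_add, sub_add_cancel]
    rw [← mul_assoc, h1]
    congr 1
    unfold WW
    rw [← Complex.exp_sum]
    congr 1
    have h3 := sum_blocks_bonds hl K E hEK
      (fun e => ((b / 2 : ℝ) : ℂ) * (cb e).C (B e * Complex.I) x)
    have h4 : ∑ k ∈ K, ∑ e : KR (blk (crn l k) l),
        ((J k e : ℝ) : ℂ) * (χ k e).C (y k e * Complex.I) x =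
        ∑ k ∈ K, ∑ e : KR (blk (crn l k) l), (if hb e.1 e.2 ∈ E then
          ((b / 2 : ℝ) : ℂ) * (cb (hb e.1 e.2)).C (B (hb e.1 e.2) * Complex.I) x else 0) := by
      refine Finset.sum_congr rfl fun k _ => Finset.sum_congr rfl fun e _ => ?_
      simp only [hJ, hχ, hy]
      rw [cb_hb]
      split_ifs
      · rfl
      · simp
    rw [h4, h3, two_nsmul, ← two_mul, Finset.mul_sum]
    refine Finset.sum_congr rfl fun e _ => ?_
    push_cast
    ring
  have e2 : ∀ x, ‖F x‖ * ∏ k ∈ K, w k x = Real.exp (∑ e ∈ E, b * (cb e).c x) := by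
    intro x
    have h1 : ‖F x‖ = 1 := A.norm_e _
    rw [h1, one_mul]
    simp only [hw]
    rw [← Real.exp_sum]
    congr 1
    have h3 := sum_blocks_bonds hl K E hEK (fun e => b / 2 * (cb e).c x)
    have h4 : ∑ k ∈ K, ∑ e : KR (blk (crn l k) l), J k e * (χ k e).c x =
        ∑ k ∈ K, ∑ e : KR (blk (crn l k) l), (if hb e.1 e.2 ∈ E then
          b / 2 * (cb (hb e.1 e.2)).c x else 0) := by
      refine Finset.sum_congr rfl fun k _ => Finset.sum_congr rfl fun e _ => ?_
      simp only [hJ, hχ]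
      rw [cb_hb]
      split_ifs
      · rfl
      · simp
    rw [h4, h3, two_nsmul, ← two_mul, Finset.mul_sum]
    refine Finset.sum_congr rfl fun e _ => ?_
    ring
  simp only [e1, e2] at hit
  refine hit.trans ?_
  refine mul_le_mul_of_nonneg_right ?_ (integral_nonneg fun x => (Real.exp_pos _).le)
  simp only [hρ]
  rw [← Real.exp_sum]
  apply Real.exp_le_exp.2
  rw [Finset.sum_add_distrib, ← Finset.mul_sum, ← Finset.mul_sum]
  have h5 := sq_blocks hl K S B hB
  have h6 := osc_blocks hl K S B hB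
  simp only [hy]
  have h7 := mul_le_mul_of_nonneg_left h5 (show (0 : ℝ) ≤ a / 4 by positivity)
  have h8 := mul_le_mul_of_nonneg_left h6 hC
  calc _ ≤ a / 4 * (2 * ∑ e ∈ S, B e ^ 2) + C * (8 * osc l S B) := add_le_add h7 h8
    _ = _ := by ring

/-- the upper bound in spin language: any finite set `E` of bonds, any character, any field -/
theorem tile_u {b ε : ℝ} (hb0 : 0 < b) (hε : 0 < ε) : ∃ (l : ℕ) (η C : ℝ), 0 < η ∧ 0 < C ∧
    ∀ (E S : Finset Bnd) (B : Bnd → ℝ), (∀ e, e ∉ S → B e = 0) → (∀ e, |B e| ≤ η) →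
    ∀ A : Chr Ginf,
    ‖∫ x, A.e x * Complex.exp (∑ e ∈ E, b * (cb e).C (B e * Complex.I) x) ∂muInf‖ ≤
      Real.exp ((helicity b + ε) / 2 * ∑ e ∈ S, B e ^ 2 + C * osc l S B) *
        ∫ x, Real.exp (∑ e ∈ E, b * (cb e).c x) ∂muInf := by
  obtain ⟨l, η, C, hl, hη, hC, bf⟩ := Vale.Agent.P159.T1.H568.block_fac b ε hb0 hε
  refine ⟨l, η, 8 * C + 1, hη, by linarith, fun E S B hB hBη A => ?_⟩
  have h0 : 0 ≤ helicity b + ε := by
    have := Vale.Agent.P159.H873.hel_nonneg hb0.le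
    linarith
  refine (tile_core hb0 hl hC h0 bf E S B hB hBη A).trans ?_
  refine mul_le_mul_of_nonneg_right ?_ (integral_nonneg fun x => (Real.exp_pos _).le)
  apply Real.exp_le_exp.2
  have h1 : 0 ≤ osc l S B := by
    rw [osc_eq]
    exact Finset.sum_nonneg fun e _ => osb_nonneg l B e
  nlinarith only [h1]

end Vale.Agent.P159.T1.H130
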