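import Vale.Agent.P159.T1.H130.TileU
import Vale.Agent.P159.T1.H731.U

/-!
`StmtU` with arbitrary couplings `0 ≤ J e ≤ b`.
-/

set_option linter.all false
set_option autoImplicit false

open MeasureTheory Filter Topology
open scoped BigOperators

namespace Vale.Agent.P159.T1.H130

open Vale.Agent.P159 Vale.Agent.P159.UJ Vale.Agent.P159.H950
open Vale.Agent.P159.T1.D (Bnd Z2 bs bt rt lf sh osc Ht bd dh pr)
open Vale.Agent.P159.H353 (wI wI_nonneg)

theorem tile_coreJ {b η C a : ℝ} {l : ℕ} (hl : 1 ≤ l) (hC : 0 ≤ C) (ha : 0 ≤ a)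
    (bf : ∀ (p : ℤ × ℤ) (J : KR (blk p l) → ℝ), (∀ e, 0 ≤ J e ∧ J e ≤ b / 2) →
      ∀ (y : KR (blk p l) → ℝ), (∀ e, |y e| ≤ η) → ∀ (A : Chr Ginf) (x : Ginf),
      ‖avg muInf (proj (intR (blk p l)))
          (fun z => A.e z * WW J (fun e : KR (blk p l) => grad (hu e.1 e.2) (hv e.1 e.2)) y z) x‖ ≤
        Real.exp (a / 4 * ∑ e, y e ^ 2 +
            C * ∑ e, ∑ e', (if e.2.1 = e'.2.1 then (y e - y e') ^ 2 else 0)) *
          ∫ z, Real.exp (∑ e : KR (blk p l), J e *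
            (grad (hu e.1 e.2) (hv e.1 e.2)).c (x + proj (intR (blk p l)) z)) ∂muInf)
    (E S : Finset Bnd) (J0 : Bnd → ℝ) (hJ0 : ∀ e, 0 ≤ J0 e ∧ J0 e ≤ b) (B : Bnd → ℝ) (hB : ∀ e, e ∉ S → B e = 0) (hBη : ∀ e, |B e| ≤ η)
    (A : Chr Ginf) :
    ‖∫ x, A.e x * Complex.exp (∑ e ∈ E, J0 e * (cb e).C (B e * Complex.I) x) ∂muInf‖ ≤
      Real.exp (a / 2 * ∑ e ∈ S, B e ^ 2 + 8 * C * osc l S B) *
        ∫ x, Real.exp (∑ e ∈ E, J0 e * (cb e).c x) ∂muInf := by
  classical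
  set K : Finset (ℤ × ℤ) := (E.image rt ∪ E.image lf).image (tl l) with hK
  have hEK : ∀ e ∈ E, tl l (rt e) ∈ K ∧ tl l (lf e) ∈ K := by
    intro e he
    constructor
    · exact Finset.mem_image_of_mem _
        (Finset.mem_union_left _ (Finset.mem_image_of_mem _ he))
    · exact Finset.mem_image_of_mem _
        (Finset.mem_union_right _ (Finset.mem_image_of_mem _ he))
  set J : (k : ℤ × ℤ) → KR (blk (crn l k) l) → ℝ := fun k e =>
    if hb e.1 e.2 ∈ E then J0 (hb e.1 e.2) / 2 else 0 with hJ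
  have hJ1 : ∀ k e, 0 ≤ J k e ∧ J k e ≤ b / 2 := by
    intro k e
    simp only [hJ]
    have := hJ0 (hb e.1 e.2)
    split_ifs
    · exact ⟨by linarith, by linarith⟩
    · exact ⟨le_rfl, by linarith⟩
  set χ : (k : ℤ × ℤ) → KR (blk (crn l k) l) → Chr Ginf := fun k e =>
    grad (hu e.1 e.2) (hv e.1 e.2) with hχ
  set y : (k : ℤ × ℤ) → KR (blk (crn l k) l) → ℝ := fun k e => B (hb e.1 e.2) with hy
  set W : ℤ × ℤ → Ginf → ℂ := fun k x =>
    (A.comp (PK l k) (PK_cont l k)).e x * WW (J k) (χ k) (y k) x with hW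
  set w : ℤ × ℤ → Ginf → ℝ := fun k x => Real.exp (∑ e, J k e * (χ k e).c x) with hw
  set ρ : ℤ × ℤ → ℝ := fun k => Real.exp (a / 4 * ∑ e, y k e ^ 2 +
    C * ∑ e, ∑ e', (if e.2.1 = e'.2.1 then (y k e - y k e') ^ 2 else 0)) with hρ
  set F : Ginf → ℂ := fun x => A.e (x - ∑ k ∈ K, PK l k x) with hF
  have hWWc : ∀ k, Continuous (WW (J k) (χ k) (y k)) := fun k =>
    Complex.continuous_exp.comp (continuous_finsetSum _ fun e _ =>
      continuous_const.mul ((χ k e).cont_C _))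
  have hWc : ∀ k, Continuous (W k) := fun k =>
    ((A.comp (PK l k) (PK_cont l k)).cont_e).mul (hWWc k)
  have hwc : ∀ k, Continuous (w k) := fun k =>
    Real.continuous_exp.comp (continuous_finsetSum _ fun e _ =>
      continuous_const.mul (χ k e).cont_c)
  have hFc : Continuous F := by
    refine A.cont_e.comp (continuous_id.sub ?_)
    exact continuous_finsetSum _ fun k _ => PK_cont l k
  have hit := block_iter muInf (fun k => (PK l k : Ginf → Ginf)) (fun k => PK_cont l k) W w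
    hWc hwc (fun k x => (Real.exp_pos _).le) ρ (fun k => (Real.exp_pos _).le)
    (by
      intro j k hjk x z
      have h1 : (A.comp (PK l k) (PK_cont l k)).e (x + PK l j z) =
          (A.comp (PK l k) (PK_cont l k)).e x := by
        show A.e (PK l k (x + PK l j z)) = A.e (PK l k x)
        rw [map_add, PK_ne hl hjk, add_zero]
      simp only [hW]
      rw [h1]
      congr 1
      unfold WW Chr.C
      congr 1
      refine Finset.sum_congr rfl fun e _ => ?_
      obtain ⟨h3, h4⟩ := grad_tile hl hjk e.1.2 e.2 x z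
      simp only [hχ]
      rw [h3, h4])
    (by
      intro j k hjk x z
      simp only [hw]
      congr 1
      refine Finset.sum_congr rfl fun e _ => ?_
      obtain ⟨h3, h4⟩ := grad_tile hl hjk e.1.2 e.2 x z
      simp only [hχ]
      rw [h3])
    (fun j k x y z => by abel)
    (fun k x => bf (crn l k) (J k) (hJ1 k) (y k) (fun e => hBη _)
      (A.comp (PK l k) (PK_cont l k)) x)
    K F hFc
    (by
      intro k hk x z
      simp only [hF]
      congr 1
      simp only [map_add, Finset.sum_add_distrib]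
      rw [PK_sum hl K hk]
      abel)
  -- the integrand
  have e1 : ∀ x, F x * ∏ k ∈ K, W k x =
      A.e x * Complex.exp (∑ e ∈ E, J0 e * (cb e).C (B e * Complex.I) x) := by
    intro x
    simp only [hW]
    rw [Finset.prod_mul_distrib]
    have h1 : F x * ∏ k ∈ K, (A.comp (PK l k) (PK_cont l k)).e x = A.e x := by
      have h2 : ∏ k ∈ K, (A.comp (PK l k) (PK_cont l k)).e x = A.e (∑ k ∈ K, PK l k x) := by
        rw [e_sum]
        rfl
      rw [h2]
      simp only [hF]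
      rw [← e_add, sub_add_cancel]
    rw [← mul_assoc, h1]
    congr 1
    unfold WW
    rw [← Complex.exp_sum]
    congr 1
    have h3 := sum_blocks_bonds hl K E hEK
      (fun e => ((J0 e / 2 : ℝ) : ℂ) * (cb e).C (B e * Complex.I) x)
    have h4 : ∑ k ∈ K, ∑ e : KR (blk (crn l k) l),
        ((J k e : ℝ) : ℂ) * (χ k e).C (y k e * Complex.I) x =
        ∑ k ∈ K, ∑ e : KR (blk (crn l k) l), (if hb e.1 e.2 ∈ E then
          ((J0 (hb e.1 e.2) / 2 : ℝ) : ℂ) * (cb (hb e.1 e.2)).C (B (hb e.1 e.2) * Complex.I) x else 0) := by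
      refine Finset.sum_congr rfl fun k _ => Finset.sum_congr rfl fun e _ => ?_
      simp only [hJ, hχ, hy]
      rw [cb_hb]
      split_ifs
      · rfl
      · simp
    rw [h4, h3, two_nsmul, ← two_mul, Finset.mul_sum]
    refine Finset.sum_congr rfl fun e _ => ?_
    push_cast
    ring
  have e2 : ∀ x, ‖F x‖ * ∏ k ∈ K, w k x = Real.exp (∑ e ∈ E, J0 e * (cb e).c x) := by
    intro x
    have h1 : ‖F x‖ = 1 := A.norm_e _
    rw [h1, one_mul]
    simp only [hw]
    rw [← Real.exp_sum]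
    congr 1
    have h3 := sum_blocks_bonds hl K E hEK (fun e => J0 e / 2 * (cb e).c x)
    have h4 : ∑ k ∈ K, ∑ e : KR (blk (crn l k) l), J k e * (χ k e).c x =
        ∑ k ∈ K, ∑ e : KR (blk (crn l k) l), (if hb e.1 e.2 ∈ E then
          J0 (hb e.1 e.2) / 2 * (cb (hb e.1 e.2)).c x else 0) := by
      refine Finset.sum_congr rfl fun k _ => Finset.sum_congr rfl fun e _ => ?_
      simp only [hJ, hχ]
      rw [cb_hb]
      split_ifs
      · rfl
      · simp
    rw [h4, h3, two_nsmul, ← two_mul, Finset.mul_sum]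
    refine Finset.sum_congr rfl fun e _ => ?_
    ring
  simp only [e1, e2] at hit
  refine hit.trans ?_
  refine mul_le_mul_of_nonneg_right ?_ (integral_nonneg fun x => (Real.exp_pos _).le)
  simp only [hρ]
  rw [← Real.exp_sum]
  apply Real.exp_le_exp.2
  rw [Finset.sum_add_distrib, ← Finset.mul_sum, ← Finset.mul_sum]
  have h5 := sq_blocks hl K S B hB
  have h6 := osc_blocks hl K S B hB
  simp only [hy]
  have h7 := mul_le_mul_of_nonneg_left h5 (show (0 : ℝ) ≤ a / 4 by positivity)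
  have h8 := mul_le_mul_of_nonneg_left h6 hC
  calc _ ≤ a / 4 * (2 * ∑ e ∈ S, B e ^ 2) + C * (8 * osc l S B) := add_le_add h7 h8
    _ = _ := by ring


/-- the upper bound in spin language, couplings at most `b` -/
theorem tile_uJ {b ε : ℝ} (hb0 : 0 < b) (hε : 0 < ε) : ∃ (l : ℕ) (η C : ℝ), 0 < η ∧ 0 < C ∧
    ∀ (E S : Finset Bnd) (J : Bnd → ℝ), (∀ e, 0 ≤ J e ∧ J e ≤ b) →
    ∀ (B : Bnd → ℝ), (∀ e, e ∉ S → B e = 0) → (∀ e, |B e| ≤ η) →
    ∀ A : Chr Ginf,
    ‖∫ x, A.e x * Complex.exp (∑ e ∈ E, J e * (cb e).C (B e * Complex.I) x) ∂muInf‖ ≤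
      Real.exp ((helicity b + ε) / 2 * ∑ e ∈ S, B e ^ 2 + C * osc l S B) *
        ∫ x, Real.exp (∑ e ∈ E, J e * (cb e).c x) ∂muInf := by
  obtain ⟨l, η, C, hl, hη, hC, bf⟩ := Vale.Agent.P159.T1.H568.block_fac b ε hb0 hε
  refine ⟨l, η, 8 * C + 1, hη, by linarith, fun E S J hJ B hB hBη A => ?_⟩
  have h0 : 0 ≤ helicity b + ε := by
    have := Vale.Agent.P159.H873.hel_nonneg hb0.le
    linarith
  refine (tile_coreJ hl hC h0 bf E S J hJ B hB hBη A).trans ?_
  refine mul_le_mul_of_nonneg_right ?_ (integral_nonneg fun x => (Real.exp_pos _).le)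
  apply Real.exp_le_exp.2
  have h1 : 0 ≤ osc l S B := by
    rw [osc_eq]
    exact Finset.sum_nonneg fun e _ => osb_nonneg l B e
  nlinarith only [h1]

/-- partition function in the sector `m` with the field `B` and the couplings `J` -/
noncomputable def ZBJ (J : Bnd → ℝ) (U : Finset Z2) (m : Bnd → ℤ) (B : Bnd → ℝ) : ℝ :=
  ∑' h : Ht U, (∏ e ∈ bd U, wI (J e) (dh h.1 e + m e)) * Real.exp (pr U B m h.1)

theorem ZBJ_const (b : ℝ) (U : Finset Z2) (m : Bnd → ℤ) (B : Bnd → ℝ) :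
    ZBJ (fun _ => b) U m B = Vale.Agent.P159.T1.D.ZB b U m B := rfl

open Vale.Agent.P159.T1.H731 in
/-- the partition functions as sums over a coset -/
theorem ZBJ_eq (J : Bnd → ℝ) (U : Finset Z2) (m : Bnd → ℤ) (B : Bnd → ℝ) :
    ZBJ J U m B = SG (fun e : ↥(bd U) => J e) (GU U) (fun e => B e) (fun e => m e) := by
  classical
  set i : Ht U → (↥(bd U) → ℤ) := fun h e => dh h.1 e + m e with hi
  have hinj : Function.Injective i := by
    intro h k hk
    apply dh_inj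
    intro e
    have := congrFun hk e
    simp only [hi] at this
    linarith
  unfold SG
  rw [← hinj.tsum_eq]
  · unfold ZBJ
    refine tsum_congr fun h => ?_
    have h1 : i h - (fun e : ↥(bd U) => m e) ∈ GU U := ⟨h, fun e => by simp [hi]⟩
    rw [if_pos h1]
    unfold H731.wt pr
    rw [← Finset.prod_coe_sort (bd U), ← Finset.sum_coe_sort (bd U)]
  · intro n hn
    rw [Function.mem_support] at hn
    by_contra h1
    apply hn
    rw [if_neg]
    rintro ⟨h, hh⟩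
    apply h1
    refine ⟨h, ?_⟩
    funext e
    have := hh e
    simp only [hi]
    rw [Pi.sub_apply] at this
    linarith

open Vale.Agent.P159.T1.H731 in
/-- free currents as a spin integral with a character -/
theorem free_char {J : Bnd → ℝ} (hJ : ∀ e, 0 ≤ J e) (E : Finset Bnd) (m : Bnd → ℤ)
    (B : Bnd → ℝ) :
    ∃ A : Chr Ginf, ((SG (fun e : ↥E => J e) (Gf (fun e : ↥E => bs e) (fun e : ↥E => bt e))
      (fun e => B e) (fun e => m e) : ℝ) : ℂ) =
      ∫ x, A.e x * Complex.exp (∑ e ∈ E, J e * (cb e).C (B e * Complex.I) x) ∂muInf := by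
  classical
  set u : ↥E → ℤ × ℤ := fun e => bs e with hu
  set v : ↥E → ℤ × ℤ := fun e => bt e with hv
  set mm : ↥E → ℤ := fun e => m e with hmm
  obtain ⟨F, hFu, hFv⟩ : ∃ F : Finset (ℤ × ℤ), (∀ e, u e ∈ F) ∧ ∀ e, v e ∈ F :=
    ⟨Finset.univ.image u ∪ Finset.univ.image v,
      fun e => Finset.mem_union_left _ (Finset.mem_image_of_mem _ (Finset.mem_univ e)),
      fun e => Finset.mem_union_right _ (Finset.mem_image_of_mem _ (Finset.mem_univ e))⟩
  refine ⟨chg F (dv u v mm), ?_⟩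
  rw [SG_free u v (J := fun e => J e) (fun e => hJ e) (fun e => B e) mm]
  congr 1
  ext x
  rw [chg_e, ang_eq_lin u v hFu hFv]
  congr 2
  rw [← Finset.sum_coe_sort E]
  rfl

open Vale.Agent.P159.T1.H731 in
theorem free_zero {J : Bnd → ℝ} (hJ : ∀ e, 0 ≤ J e) (E : Finset Bnd) :
    SG (fun e : ↥E => J e) (Gf (fun e : ↥E => bs e) (fun e : ↥E => bt e)) 0 0 =
      ∫ x, Real.exp (∑ e ∈ E, J e * (cb e).c x) ∂muInf := by
  classical
  set u : ↥E → ℤ × ℤ := fun e => bs e with hu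
  set v : ↥E → ℤ × ℤ := fun e => bt e with hv
  have h1 := SG_free u v (J := fun e => J e) (fun e => hJ e) 0 0
  have h2 : ∀ x : Ginf, (fourier 1 (H731.ang u v 0 x) : ℂ) *
      Complex.exp (∑ e : ↥E, ((fun e => J e : ↥E → ℝ) e : ℂ) *
        (grad (u e) (v e)).C (((0 : ↥E → ℝ) e : ℂ) * Complex.I) x) =
      ((Real.exp (∑ e ∈ E, J e * (cb e).c x) : ℝ) : ℂ) := by
    intro x
    have h3 : H731.ang u v 0 x = 0 := by
      unfold H731.ang
      simp
    rw [h3, fourier_arg_zero, one_mul, Complex.ofReal_exp]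
    congr 1
    push_cast
    rw [← Finset.sum_coe_sort E]
    refine Finset.sum_congr rfl fun e _ => ?_
    simp only [Pi.zero_apply, Complex.ofReal_zero, zero_mul, Chr.C_zero]
    rfl
  simp only [h2] at h1
  rw [integral_complex_ofReal] at h1
  exact_mod_cast h1

open Vale.Agent.P159.T1.H731 in
/-- **`StmtU` with couplings `0 ≤ J e ≤ b`** -/
theorem stmtUJ {b ε : ℝ} (hb : 0 < b) (hε : 0 < ε) : ∃ (l : ℕ) (η C : ℝ), 0 < η ∧ 0 < C ∧
    ∀ (U : Finset Z2) (S : Finset Bnd) (m : Bnd → ℤ) (B J : Bnd → ℝ),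
      (∀ e, 0 ≤ J e ∧ J e ≤ b) → (∀ e, e ∉ S → B e = 0) → (∀ e, |B e| ≤ η) →
      ZBJ J U m B ≤ Real.exp ((helicity b + ε) / 2 * ∑ e ∈ S, B e ^ 2 + C * osc l S B) *
        ZBJ J U 0 0 := by
  obtain ⟨l, η, C, hη, hC, h⟩ := tile_uJ hb hε
  refine ⟨l, η, C, hη, hC, fun U S m B J hJ hB hBη => ?_⟩
  have hJ0 : ∀ e, 0 ≤ J e := fun e => (hJ e).1
  obtain ⟨A, hA⟩ := free_char hJ0 (bd U) m B
  have h2 := h (bd U) S J hJ B hB hBη A
  rw [← hA, ← free_zero hJ0, Complex.norm_real, Real.norm_eq_abs] at h2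
  have h3 := (le_abs_self _).trans h2
  have hmono := SG_mono (J := fun e : ↥(bd U) => J e) (fun e => hJ0 e) (GU_le U) (GU_half U)
    (fun e => B e) (fun e => m e)
  rw [← ZBJ_eq J U m B] at hmono
  have hZ : ZBJ J U 0 0 = SG (fun e : ↥(bd U) => J e) (GU U) (0 : ↥(bd U) → ℝ)
      (0 : ↥(bd U) → ℤ) := ZBJ_eq J U 0 0
  rw [← hZ] at hmono
  have hZ0 : 0 ≤ ZBJ J U 0 0 := by
    rw [hZ]
    exact SG_nonneg (J := fun e : ↥(bd U) => J e) (fun e => hJ0 e) _ _ _
  have hpos : 0 < SG (fun e : ↥(bd U) => J e)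
      (Gf (fun e : ↥(bd U) => bs e) (fun e : ↥(bd U) => bt e)) 0 0 := by
    rw [free_zero hJ0]
    refine integral_exp_pos (cint ?_)
    refine Real.continuous_exp.comp (continuous_finsetSum _ fun e _ => ?_)
    exact continuous_const.mul (cb e).cont_c
  refine le_of_mul_le_mul_right (hmono.trans ?_) hpos
  calc _ ≤ (Real.exp ((helicity b + ε) / 2 * ∑ e ∈ S, B e ^ 2 + C * osc l S B) *
        SG (fun e : ↥(bd U) => J e)
          (Gf (fun e : ↥(bd U) => bs e) (fun e : ↥(bd U) => bt e)) 0 0) * ZBJ J U 0 0 :=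
      mul_le_mul_of_nonneg_right h3 hZ0
    _ = _ := by ring

theorem ZBJ_congr {J J' : Bnd → ℝ} {U : Finset Z2} (h : ∀ e ∈ bd U, J e = J' e)
    (m : Bnd → ℤ) (B : Bnd → ℝ) : ZBJ J U m B = ZBJ J' U m B := by
  unfold ZBJ
  refine tsum_congr fun x => ?_
  congr 1
  exact Finset.prod_congr rfl fun e he => by rw [h e he]

/-- `StmtU` with couplings `0 ≤ J e ≤ b` on the bonds of `bd U` -/
theorem stmtUJ' {b ε : ℝ} (hb : 0 < b) (hε : 0 < ε) : ∃ (l : ℕ) (η C : ℝ), 0 < η ∧ 0 < C ∧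
    ∀ (U : Finset Z2) (S : Finset Bnd) (m : Bnd → ℤ) (B J : Bnd → ℝ),
      (∀ e ∈ bd U, 0 ≤ J e ∧ J e ≤ b) → (∀ e, e ∉ S → B e = 0) → (∀ e, |B e| ≤ η) →
      ZBJ J U m B ≤ Real.exp ((helicity b + ε) / 2 * ∑ e ∈ S, B e ^ 2 + C * osc l S B) *
        ZBJ J U 0 0 := by
  classical
  obtain ⟨l, η, C, hη, hC, h⟩ := stmtUJ hb hε
  refine ⟨l, η, C, hη, hC, fun U S m B J hJ hB hBη => ?_⟩
  have h1 := h U S m B (fun e => if e ∈ bd U then J e else 0) (fun e => by
    by_cases he : e ∈ bd U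
    · rw [if_pos he]
      exact hJ e he
    · rw [if_neg he]
      exact ⟨le_rfl, hb.le⟩) hB hBη
  have h2 : ∀ e ∈ bd U, J e = (fun e => if e ∈ bd U then J e else 0) e := fun e he =>
    (if_pos he).symm
  rw [ZBJ_congr h2, ZBJ_congr h2 0 0]
  exact h1

end Vale.Agent.P159.T1.H130
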